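import Mathlib
import Vale.Agent.P045.Defs
import Vale.Agent.P045.Final

namespace Vale.Agent.Results.P045.Main

open Vale.Agent.P045

theorem result :
    (¬ ∀ r : ℕ, 2 ≤ r → ∀ (V : Type) [Fintype V] (part : V → Fin r) (H : Finset (Finset V)),
      IsRPartite part H → tau H ≤ (r - 1) * nu H) ∧
    ∃ p₀ : ℕ, ∀ p : ℕ, p.Prime → p₀ ≤ p →
      ∃ (V : Type) (_ : Fintype V) (part : V → Fin (p + 1)) (H : Finset (Finset V)),
        IsRPartite part H ∧ H.Nonempty ∧ (∀ e ∈ H, ∀ e' ∈ H, ∃ v, v ∈ e ∧ v ∈ e') ∧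
          nu H = 1 ∧ tau H = p + 1 := by
  refine ⟨fun h => ?_, counter⟩
  obtain ⟨p₀, h0⟩ := counter
  obtain ⟨p, hle, hp⟩ := Nat.exists_infinite_primes p₀
  obtain ⟨V, _, part, H, h1, -, -, h2, h3⟩ := h0 p hp hle
  have := h (p + 1) (by have := hp.two_le; omega) V part H h1
  rw [h2, h3] at this
  omega

end Vale.Agent.Results.P045.Main
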